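import Vale.Agent.P162.Group

namespace Vale.Agent.P162

open Finset

lemma thorpMap_val (m : ℕ) (b : Fin m → Bool) (x : Fin (2 * m)) :
    ∃ c : ℕ, c < 2 ∧ (thorpMap m b x).val = 2 * (x.val % m) + c := by
  unfold thorpMap
  have hx := x.isLt
  by_cases h : x.val < m
  · rw [dif_pos h]
    refine ⟨if b ⟨x.val, h⟩ then 1 else 0, by split_ifs <;> omega, ?_⟩
    simp only [Nat.mod_eq_of_lt h]
  · rw [dif_neg h]
    refine ⟨if b ⟨x.val - m, by omega⟩ then 0 else 1, by split_ifs <;> omega, ?_⟩
    have h1 : x.val % m = x.val - m := by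
      have h2 : x.val = (x.val - m) + m := by omega
      conv_lhs => rw [h2]
      rw [Nat.add_mod_right, Nat.mod_eq_of_lt (by omega)]
    simp only [h1]

lemma thorpMap_injective (m : ℕ) (b : Fin m → Bool) : Function.Injective (thorpMap m b) := by
  intro x y hxy
  have hx := x.isLt
  have hy := y.isLt
  have hv : (thorpMap m b x).val = (thorpMap m b y).val := by rw [hxy]
  unfold thorpMap at hv
  apply Fin.ext
  by_cases h1 : x.val < m <;> by_cases h2 : y.val < m
  · rw [dif_pos h1, dif_pos h2] at hv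
    simp only at hv
    split_ifs at hv <;> omega
  · rw [dif_pos h1, dif_neg h2] at hv
    simp only at hv
    by_cases he : x.val = y.val - m
    · have hb : b ⟨x.val, h1⟩ = b ⟨y.val - m, by omega⟩ := by
        congr 1; exact Fin.ext he
      rw [hb] at hv
      split_ifs at hv <;> omega
    · split_ifs at hv <;> omega
  · rw [dif_neg h1, dif_pos h2] at hv
    simp only at hv
    by_cases he : y.val = x.val - m
    · have hb : b ⟨y.val, h2⟩ = b ⟨x.val - m, by omega⟩ := by
        congr 1; exact Fin.ext he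
      rw [hb] at hv
      split_ifs at hv <;> omega
    · split_ifs at hv <;> omega
  · rw [dif_neg h1, dif_neg h2] at hv
    simp only at hv
    split_ifs at hv <;> omega

/-- the shuffle as a permutation -/
noncomputable def thorpPerm (m : ℕ) (b : Fin m → Bool) : Equiv.Perm (Fin (2 * m)) :=
  Equiv.ofBijective (thorpMap m b) (Finite.injective_iff_bijective.mp (thorpMap_injective m b))

lemma thorpPerm_apply (m : ℕ) (b : Fin m → Bool) (x : Fin (2 * m)) :
    thorpPerm m b x = thorpMap m b x := rfl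

lemma thorpLaw_nonneg (m : ℕ) (g : Equiv.Perm (Fin (2 * m))) : 0 ≤ thorpLaw m g := by
  unfold thorpLaw; positivity

lemma thorpLaw_ne_zero (m : ℕ) (g : Equiv.Perm (Fin (2 * m))) (hg : thorpLaw m g ≠ 0) :
    ∃ b, g = thorpPerm m b := by
  unfold thorpLaw at hg
  have h1 : (Finset.univ.filter (fun b : Fin m → Bool => ∀ x, g x = thorpMap m b x)).card ≠ 0 := by
    intro h0
    rw [h0] at hg
    simp at hg
  obtain ⟨b, hb⟩ := Finset.card_pos.mp (Nat.pos_of_ne_zero h1)
  rw [Finset.mem_filter] at hb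
  exact ⟨b, Equiv.ext hb.2⟩

lemma sum_thorpLaw (m : ℕ) : ∑ g : Equiv.Perm (Fin (2 * m)), thorpLaw m g = 1 := by
  classical
  unfold thorpLaw
  rw [← Finset.sum_div, ← Nat.cast_sum]
  have h1 : ∑ g : Equiv.Perm (Fin (2 * m)),
      (Finset.univ.filter (fun b : Fin m → Bool => ∀ x, g x = thorpMap m b x)).card
      = (Finset.univ : Finset (Fin m → Bool)).card := by
    rw [Finset.card_eq_sum_card_fiberwise (f := fun b => thorpPerm m b) (t := Finset.univ)
      (fun b _ => Finset.mem_coe.mpr (Finset.mem_univ _))]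
    apply Finset.sum_congr rfl
    intro g _
    congr 1
    ext b
    simp only [Finset.mem_filter, Finset.mem_univ, true_and]
    constructor
    · intro h; exact (Equiv.ext h).symm
    · intro h x; rw [← h]; rfl
  rw [h1, Finset.card_univ]
  simp

/-- products of `t` shuffles -/
def IsProd (m : ℕ) : ℕ → Equiv.Perm (Fin (2 * m)) → Prop
  | 0 => fun g => g = 1
  | t + 1 => fun g => ∃ h b, IsProd m t h ∧ g = h * thorpPerm m b

lemma thorpPow_nonneg (m t : ℕ) (g : Equiv.Perm (Fin (2 * m))) : 0 ≤ thorpPow m t g := by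
  induction t generalizing g with
  | zero => unfold thorpPow; split_ifs <;> norm_num
  | succ t ih => exact conv_nonneg _ _ ih (thorpLaw_nonneg m) g

lemma sum_thorpPow (m t : ℕ) : ∑ g : Equiv.Perm (Fin (2 * m)), thorpPow m t g = 1 := by
  induction t with
  | zero => simp [thorpPow]
  | succ t ih =>
    change ∑ g, conv (thorpPow m t) (thorpLaw m) g = 1
    rw [sum_conv, ih, sum_thorpLaw, one_mul]

lemma isProd_of_thorpPow_ne_zero (m t : ℕ) (g : Equiv.Perm (Fin (2 * m)))
    (hg : thorpPow m t g ≠ 0) : IsProd m t g := by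
  induction t generalizing g with
  | zero =>
    unfold thorpPow at hg
    by_contra h
    exact hg (if_neg h)
  | succ t ih =>
    obtain ⟨h, s, hh, hs, rfl⟩ := conv_ne_zero _ _ g hg
    obtain ⟨b, rfl⟩ := thorpLaw_ne_zero m s hs
    exact ⟨h, b, ih h hh, rfl⟩

lemma isProd_add (m a b : ℕ) (g : Equiv.Perm (Fin (2 * m))) (hg : IsProd m (a + b) g) :
    ∃ g1 g2, IsProd m a g1 ∧ IsProd m b g2 ∧ g = g1 * g2 := by
  induction b generalizing g with
  | zero => exact ⟨g, 1, hg, rfl, by simp⟩
  | succ b ih =>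
    obtain ⟨h, c, hh, rfl⟩ := hg
    obtain ⟨g1, g2, h1, h2, rfl⟩ := ih h hh
    exact ⟨g1, g2 * thorpPerm m c, h1, ⟨g2, c, h2, rfl⟩, by rw [mul_assoc]⟩

lemma tvUnif_thorpPow_antitone (m : ℕ) {s t : ℕ} (hst : s ≤ t) :
    tvUnif (thorpPow m t) ≤ tvUnif (thorpPow m s) := by
  induction t, hst using Nat.le_induction with
  | base => exact le_rfl
  | succ t _ ih =>
    exact le_trans (tvUnif_conv_le _ _ (thorpLaw_nonneg m) (sum_thorpLaw m)) ih

/-- After `j ≤ k + 1` shuffles of `2 ^ (k + 1)` cards the top bits of the position are the low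
bits of the original position. -/
lemma isProd_invariant (k j : ℕ) (hj : j ≤ k + 1) (g : Equiv.Perm (Fin (2 * 2 ^ k)))
    (hg : IsProd (2 ^ k) j g) (x : Fin (2 * 2 ^ k)) :
    (g x).val / 2 ^ j = x.val % 2 ^ (k + 1 - j) := by
  induction j generalizing g x with
  | zero =>
    have h1 : g = 1 := hg
    have hx := x.isLt
    rw [h1]
    simp only [Equiv.Perm.coe_one, id_eq, pow_zero, Nat.div_one, Nat.sub_zero]
    rw [Nat.mod_eq_of_lt]
    rw [pow_succ]; omega
  | succ j ih =>
    obtain ⟨h, b, hh, rfl⟩ := hg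
    have h1 := ih (by omega) h hh (thorpPerm (2 ^ k) b x)
    obtain ⟨c, hc, hval⟩ := thorpMap_val (2 ^ k) b x
    rw [thorpPerm_apply] at h1
    rw [Equiv.Perm.mul_apply, thorpPerm_apply, pow_succ, ← Nat.div_div_eq_div_mul, h1, hval]
    -- ((2 * (x % 2^k) + c) % 2^(k+1-j)) / 2 = x % 2^(k+1-(j+1))
    obtain ⟨i, hi⟩ : ∃ i, k + 1 - j = i + 1 := ⟨k - j, by omega⟩
    have hi' : k + 1 - (j + 1) = i := by omega
    rw [hi, hi', pow_succ]
    have hdvd : 2 ^ i ∣ 2 ^ k := pow_dvd_pow 2 (by omega)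
    have h2 : x.val % 2 ^ k % 2 ^ i = x.val % 2 ^ i := Nat.mod_mod_of_dvd _ hdvd
    set y := x.val % 2 ^ k with hy
    set M := 2 ^ i with hM
    have hMpos : 0 < M := by positivity
    have h3 : (2 * y + c) % (M * 2) = 2 * (y % M) + c := by
      have hdm := Nat.div_add_mod y M
      have hlt := Nat.mod_lt y hMpos
      have h4 : 2 * y + c = (2 * (y % M) + c) + (M * 2) * (y / M) := by
        nlinarith
      rw [h4, Nat.add_mul_mod_self_left, Nat.mod_eq_of_lt (by omega)]
    rw [h3, ← h2]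
    omega

end Vale.Agent.P162
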