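import Vale.Agent.P162.Event

namespace Vale.Agent.P162

open Finset

section
variable (m : ℕ)

/-- position 0 -/
def p0 (hm : 2 ≤ m) : Fin (2 * m) := ⟨0, by omega⟩
/-- position 1 -/
def p1 (hm : 2 ≤ m) : Fin (2 * m) := ⟨1, by omega⟩
/-- position m -/
def pm (hm : 2 ≤ m) : Fin (2 * m) := ⟨m, by omega⟩

/-- exchange of the two halves -/
def flipHalf (y : Fin (2 * m)) : Fin (2 * m) :=
  if h : y.val < m then ⟨y.val + m, by omega⟩ else ⟨y.val - m, by omega⟩

lemma flipHalf_flipHalf (y : Fin (2 * m)) : flipHalf m (flipHalf m y) = y := by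
  have hy := y.isLt
  unfold flipHalf
  by_cases h : y.val < m
  · simp only [dif_pos h]
    have h2 : ¬ (y.val + m < m) := by omega
    simp only [dif_neg h2]
    apply Fin.ext
    simp
  · simp only [dif_neg h]
    have h2 : y.val - m < m := by omega
    simp only [dif_pos h2]
    apply Fin.ext
    simp only
    omega

lemma flipHalf_top (y : Fin (2 * m)) : (flipHalf m y).val < m ↔ ¬ y.val < m := by
  have hy := y.isLt
  unfold flipHalf
  by_cases h : y.val < m
  · simp only [dif_pos h]
    constructor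
    · intro h2; omega
    · intro h2; exact absurd h h2
  · simp only [dif_neg h]
    constructor
    · intro _; exact h
    · intro _; omega

/-- the permutations sending positions 0 and 1 to the same half -/
def sameHalf (hm : 2 ≤ m) : Finset (Equiv.Perm (Fin (2 * m))) :=
  Finset.univ.filter (fun g => ((g (p0 m hm)).val < m ↔ (g (p1 m hm)).val < m))

lemma mem_sameHalf (hm : 2 ≤ m) (g : Equiv.Perm (Fin (2 * m))) :
    g ∈ sameHalf m hm ↔ ((g (p0 m hm)).val < m ↔ (g (p1 m hm)).val < m) := by
  unfold sameHalf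
  rw [Finset.mem_filter]
  exact ⟨fun h => h.2, fun h => ⟨Finset.mem_univ _, h⟩⟩

lemma p0_ne_p1 (hm : 2 ≤ m) : p0 m hm ≠ p1 m hm := by
  intro h
  have := congrArg Fin.val h
  simp [p0, p1] at this

/-- the involution used to bound `sameHalf` -/
def psi (hm : 2 ≤ m) (g : Equiv.Perm (Fin (2 * m))) : Equiv.Perm (Fin (2 * m)) :=
  Equiv.swap (g (p1 m hm)) (flipHalf m (g (p1 m hm))) * g

lemma psi_p1 (hm : 2 ≤ m) (g : Equiv.Perm (Fin (2 * m))) :
    psi m hm g (p1 m hm) = flipHalf m (g (p1 m hm)) := by
  unfold psi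
  rw [Equiv.Perm.mul_apply, Equiv.swap_apply_left]

lemma psi_def (hm : 2 ≤ m) (g : Equiv.Perm (Fin (2 * m))) :
    psi m hm g = Equiv.swap (g (p1 m hm)) (flipHalf m (g (p1 m hm))) * g := rfl

lemma psi_psi (hm : 2 ≤ m) (g : Equiv.Perm (Fin (2 * m))) : psi m hm (psi m hm g) = g := by
  have h1 := psi_p1 m hm g
  rw [psi_def m hm (psi m hm g), h1, flipHalf_flipHalf, psi_def m hm g, ← mul_assoc,
    Equiv.swap_comm, Equiv.swap_mul_self, one_mul]

lemma psi_notMem (hm : 2 ≤ m) (g : Equiv.Perm (Fin (2 * m))) (hg : g ∈ sameHalf m hm) :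
    psi m hm g ∉ sameHalf m hm := by
  rw [mem_sameHalf] at hg ⊢
  have h1 := psi_p1 m hm g
  have h0 : psi m hm g (p0 m hm) = g (p0 m hm) := by
    unfold psi
    rw [Equiv.Perm.mul_apply]
    apply Equiv.swap_apply_of_ne_of_ne
    · intro h
      exact p0_ne_p1 m hm (g.injective h)
    · intro h
      have h2 := flipHalf_top m (g (p1 m hm))
      rw [← h] at h2
      tauto
  rw [h0, h1, flipHalf_top]
  tauto

lemma two_mul_card_sameHalf_lt (hm : 2 ≤ m) :
    2 * (sameHalf m hm).card < Fintype.card (Equiv.Perm (Fin (2 * m))) := by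
  classical
  -- a permutation outside `sameHalf` whose image under `psi` is outside too
  set g0 : Equiv.Perm (Fin (2 * m)) := Equiv.swap (p1 m hm) (pm m hm) with hg0
  have hp0pm : p0 m hm ≠ pm m hm := by
    intro h
    have := congrArg Fin.val h
    simp only [p0, pm] at this
    omega
  have hg0p1 : g0 (p1 m hm) = pm m hm := Equiv.swap_apply_left _ _
  have hg0p0 : g0 (p0 m hm) = p0 m hm :=
    Equiv.swap_apply_of_ne_of_ne (p0_ne_p1 m hm) hp0pm
  have hflip : flipHalf m (pm m hm) = p0 m hm := by
    unfold flipHalf pm p0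
    simp
  have hg0not : g0 ∉ sameHalf m hm := by
    rw [mem_sameHalf, hg0p0, hg0p1]
    simp only [p0, pm]
    intro h
    have := h.mp (by omega)
    omega
  have hpsig0 : psi m hm g0 ∉ sameHalf m hm := by
    rw [mem_sameHalf, psi_p1, hg0p1, hflip]
    have : psi m hm g0 (p0 m hm) = pm m hm := by
      unfold psi
      rw [Equiv.Perm.mul_apply, hg0p0, hg0p1, hflip, Equiv.swap_apply_right]
    rw [this]
    simp only [p0, pm]
    intro h
    have := h.mpr (by omega)
    omega
  have hinj : Function.Injective (psi m hm) := by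
    intro a b hab
    rw [← psi_psi m hm a, ← psi_psi m hm b, hab]
  have hsub : (sameHalf m hm).image (psi m hm) ⊆ ((sameHalf m hm)ᶜ).erase (psi m hm g0) := by
    intro g hg
    rw [Finset.mem_image] at hg
    obtain ⟨a, ha, rfl⟩ := hg
    rw [Finset.mem_erase, Finset.mem_compl]
    refine ⟨?_, psi_notMem m hm a ha⟩
    intro h
    exact hg0not (hinj h ▸ ha)
  have h1 := Finset.card_le_card hsub
  rw [Finset.card_image_of_injective _ hinj,
    Finset.card_erase_of_mem (Finset.mem_compl.mpr hpsig0), Finset.card_compl] at h1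
  have h2 : (sameHalf m hm).card ≤ Fintype.card (Equiv.Perm (Fin (2 * m))) :=
    Finset.card_le_univ _
  have h3 : (sameHalf m hm).card < Fintype.card (Equiv.Perm (Fin (2 * m))) := by
    have : (sameHalf m hm) ≠ Finset.univ := by
      intro h
      exact hg0not (h ▸ Finset.mem_univ g0)
    exact Finset.card_lt_univ_of_notMem hg0not
  omega

/-- composing with the transposition of positions 0 and 1 changes the statistic -/
lemma card_evenTop_swap_ne (hm : 2 ≤ m) (g : Equiv.Perm (Fin (2 * m))) (hg : g ∉ sameHalf m hm) :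
    (evenTop m (g * Equiv.swap (p0 m hm) (p1 m hm))).card ≠ (evenTop m g).card := by
  classical
  rw [mem_sameHalf] at hg
  set τ := Equiv.swap (p0 m hm) (p1 m hm) with hτ
  have herase : (evenTop m (g * τ)).erase (p0 m hm) = (evenTop m g).erase (p0 m hm) := by
    ext x
    rw [Finset.mem_erase, Finset.mem_erase, mem_evenTop, mem_evenTop, Equiv.Perm.mul_apply]
    constructor
    · rintro ⟨hx0, hx, hgx⟩
      have hx1 : x ≠ p1 m hm := by
        intro h; rw [h] at hx; simp [p1] at hx
      rw [hτ, Equiv.swap_apply_of_ne_of_ne hx0 hx1] at hgx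
      exact ⟨hx0, hx, hgx⟩
    · rintro ⟨hx0, hx, hgx⟩
      have hx1 : x ≠ p1 m hm := by
        intro h; rw [h] at hx; simp [p1] at hx
      rw [hτ, Equiv.swap_apply_of_ne_of_ne hx0 hx1]
      exact ⟨hx0, hx, hgx⟩
  have hmem1 : p0 m hm ∈ evenTop m (g * τ) ↔ (g (p1 m hm)).val < m := by
    rw [mem_evenTop, Equiv.Perm.mul_apply, hτ, Equiv.swap_apply_left]
    simp [p0]
  have hmem2 : p0 m hm ∈ evenTop m g ↔ (g (p0 m hm)).val < m := by
    rw [mem_evenTop]
    simp [p0]
  by_cases h : (g (p0 m hm)).val < m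
  · have h' : ¬ (g (p1 m hm)).val < m := by tauto
    have e1 := Finset.card_erase_of_mem (hmem2.mpr h)
    have e2 : (evenTop m (g * τ)).erase (p0 m hm) = evenTop m (g * τ) :=
      Finset.erase_eq_of_notMem (fun hh => h' (hmem1.mp hh))
    have e3 : 0 < (evenTop m g).card := Finset.card_pos.mpr ⟨_, hmem2.mpr h⟩
    rw [← herase, e2] at e1
    omega
  · have h' : (g (p1 m hm)).val < m := by tauto
    have e1 := Finset.card_erase_of_mem (hmem1.mpr h')
    have e2 : (evenTop m g).erase (p0 m hm) = evenTop m g :=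
      Finset.erase_eq_of_notMem (fun hh => h (hmem2.mp hh))
    have e3 : 0 < (evenTop m (g * τ)).card := Finset.card_pos.mpr ⟨_, hmem1.mpr h'⟩
    rw [herase, e2] at e1
    omega

/-- the level sets of the statistic have uniform measure less than `3/4` -/
theorem four_mul_card_level_lt (hm : 2 ≤ m) (c : ℕ) :
    4 * (Finset.univ.filter (fun g : Equiv.Perm (Fin (2 * m)) => (evenTop m g).card = c)).card
      < 3 * Fintype.card (Equiv.Perm (Fin (2 * m))) := by
  classical
  set E := Finset.univ.filter (fun g : Equiv.Perm (Fin (2 * m)) => (evenTop m g).card = c) with hE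
  set S := sameHalf m hm with hS
  set τ := Equiv.swap (p0 m hm) (p1 m hm) with hτ
  have hSlt : 2 * S.card < Fintype.card (Equiv.Perm (Fin (2 * m))) :=
    two_mul_card_sameHalf_lt m hm
  -- E \ S injects into (E ∪ S)ᶜ
  have hinj : Function.Injective (fun g : Equiv.Perm (Fin (2 * m)) => g * τ) :=
    mul_left_injective τ
  have hsub : (E \ S).image (fun g => g * τ) ⊆ (E ∪ S)ᶜ := by
    intro g hg
    rw [Finset.mem_image] at hg
    obtain ⟨a, ha, rfl⟩ := hg
    rw [Finset.mem_sdiff] at ha
    rw [Finset.mem_compl, Finset.mem_union]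
    rintro (h | h)
    · rw [hE, Finset.mem_filter] at h
      have haE := ha.1
      rw [hE, Finset.mem_filter] at haE
      exact card_evenTop_swap_ne m hm a ha.2 (h.2.trans haE.2.symm)
    · apply ha.2
      rw [hS, mem_sameHalf] at h ⊢
      rw [Equiv.Perm.mul_apply, Equiv.Perm.mul_apply, hτ, Equiv.swap_apply_left,
        Equiv.swap_apply_right] at h
      exact h.symm
  have h1 := Finset.card_le_card hsub
  rw [Finset.card_image_of_injective _ hinj, Finset.card_compl] at h1
  have h2 : (E ∪ S).card = (E \ S).card + S.card := by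
    rw [← Finset.card_union_of_disjoint Finset.sdiff_disjoint, Finset.sdiff_union_self_eq_union]
  have h3 : E.card ≤ (E \ S).card + S.card := by
    rw [← h2]; exact Finset.card_le_card Finset.subset_union_left
  have h4 : (E ∪ S).card ≤ Fintype.card (Equiv.Perm (Fin (2 * m))) := Finset.card_le_univ _
  omega

end

end Vale.Agent.P162
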