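import Mathlib

/-!
# P162 : the Thorp shuffle, definitions
Positions of a deck of `2 * m` cards are `0, 1, ..., 2 m - 1` (top to bottom).
-/

namespace Vale.Agent.P162

/-- One Thorp shuffle with coin outcomes `b`, as a map on positions: for `i < m` the cards in
positions `i` and `m + i` go to positions `2 i` and `2 i + 1`; the card of the top half goes to
`2 i` if `b i = false` and to `2 i + 1` if `b i = true`. -/
def thorpMap (m : ℕ) (b : Fin m → Bool) (x : Fin (2 * m)) : Fin (2 * m) :=
  if h : x.val < m then
    ⟨2 * x.val + (if b ⟨x.val, h⟩ then 1 else 0), by split_ifs <;> omega⟩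
  else
    ⟨2 * (x.val - m) + (if b ⟨x.val - m, by omega⟩ then 0 else 1), by split_ifs <;> omega⟩

/-- The law `q` of one Thorp shuffle on the symmetric group: the `m` coins are fair and
independent, so `q g` is the proportion of coin vectors whose shuffle is the permutation `g`. -/
noncomputable def thorpLaw (m : ℕ) (g : Equiv.Perm (Fin (2 * m))) : ℝ :=
  ((Finset.univ.filter (fun b : Fin m → Bool => ∀ x, g x = thorpMap m b x)).card : ℝ) / 2 ^ m

/-- Convolution of two real functions on a finite group. -/
noncomputable def conv {G : Type*} [Group G] [Fintype G] (μ ν : G → ℝ) (g : G) : ℝ :=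
  ∑ h : G, μ h * ν (h⁻¹ * g)

/-- The `t`-fold convolution power of the Thorp law (the point mass at the identity for `t = 0`):
the law of the permutation of positions produced by `t` independent shuffles. -/
noncomputable def thorpPow (m : ℕ) : ℕ → Equiv.Perm (Fin (2 * m)) → ℝ
  | 0 => fun g => if g = 1 then 1 else 0
  | t + 1 => conv (thorpPow m t) (thorpLaw m)

/-- Total variation distance to the uniform law on a finite group. -/
noncomputable def tvUnif {G : Type*} [Fintype G] (μ : G → ℝ) : ℝ :=
  (1 / 2) * ∑ g : G, |μ g - 1 / (Fintype.card G : ℝ)|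

end Vale.Agent.P162
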