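import Mathlib

/-!
# P162 : the scalar potential argument

`S t k` plays the role of the divergence of the deck reduced modulo `2 ^ (d - k)` after `t`
shuffles, `s j` the contraction constant of blocks of size `2 ^ j`.
-/

namespace Vale.Agent.P162

open Finset

/-- One step of the weighted potential. -/
theorem pot_step (d : ℕ) (s : ℕ → ℝ) (lam : ℝ) (w : ℕ → ℝ) (A A' : ℕ → ℝ)
    (hw : ∀ k, 0 ≤ w k)
    (hwrec : ∀ k, k < d → lam * w (k + 1) = w k * (1 - s (k + 1)))
    (hcond : (1 - lam) * ∑ k ∈ range d, w k ≤ lam * w d)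
    (hA0 : 0 ≤ A 0) (hAd : A d = 0)
    (hrec : ∀ k, k < d → A' k ≤ (1 - s (k + 1)) * A (k + 1) + s (k + 1) * A 0) :
    ∑ k ∈ range d, w k * A' k ≤ lam * ∑ k ∈ range d, w k * A k := by
  have h1 : ∑ k ∈ range d, w k * A' k ≤
      ∑ k ∈ range d, (lam * (w (k + 1) * A (k + 1)) + (w k - lam * w (k + 1)) * A 0) := by
    apply Finset.sum_le_sum
    intro k hk
    have hk' := Finset.mem_range.mp hk
    have h := mul_le_mul_of_nonneg_left (hrec k hk') (hw k)
    have e := hwrec k hk'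
    calc w k * A' k ≤ w k * ((1 - s (k + 1)) * A (k + 1) + s (k + 1) * A 0) := h
      _ = (w k * (1 - s (k + 1))) * A (k + 1) + (w k - w k * (1 - s (k + 1))) * A 0 := by ring
      _ = _ := by rw [← e]; ring
  have h2 : ∑ k ∈ range d, (w (k + 1) * A (k + 1)) = ∑ k ∈ range d, w k * A k - w 0 * A 0 := by
    have a1 := Finset.sum_range_succ (fun k => w k * A k) d
    have a2 := Finset.sum_range_succ' (fun k => w k * A k) d
    simp only [hAd, mul_zero, add_zero] at a1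
    linarith
  have h3 : ∑ k ∈ range d, w (k + 1) = ∑ k ∈ range d, w k + w d - w 0 := by
    have a1 := Finset.sum_range_succ (fun k => w k) d
    have a2 := Finset.sum_range_succ' (fun k => w k) d
    linarith
  rw [Finset.sum_add_distrib, ← Finset.mul_sum, ← Finset.sum_mul, Finset.sum_sub_distrib,
    ← Finset.mul_sum, h2, h3] at h1
  nlinarith [mul_nonneg hA0 (sub_nonneg.mpr hcond)]

/-- Exponential decay of `S t 0` with rate `1 / (2 Q)`. -/
theorem pot_decay (d : ℕ) (hd : 1 ≤ d) (s : ℕ → ℝ) (S : ℕ → ℕ → ℝ) (B Q : ℝ)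
    (hs : ∀ j, 0 ≤ s j ∧ s j ≤ 1 / 2)
    (hS : ∀ t k, 0 ≤ S t k) (hSd : ∀ t, S t d = 0)
    (hrec : ∀ t k, k < d → S (t + 1) k ≤ (1 - s (k + 1)) * S t (k + 1) + s (k + 1) * S t 0)
    (hB : ∀ k, S 0 k ≤ B)
    (hQ : ∑ k ∈ range d, (∏ i ∈ range k, (1 - s (i + 1))) ≤
      Q * ∏ i ∈ range d, (1 - s (i + 1)))
    (t : ℕ) :
    S t 0 ≤ 2 * d * B * Real.exp (-(t / (2 * Q))) := by
  set p : ℕ → ℝ := fun k => ∏ i ∈ range k, (1 - s (i + 1)) with hp
  have hp0 : p 0 = 1 := by simp [hp]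
  have hps : ∀ k, p (k + 1) = p k * (1 - s (k + 1)) := fun k => by
    simp only [hp]; rw [Finset.prod_range_succ]
  have hppos : ∀ k, 0 < p k := fun k => by
    apply Finset.prod_pos
    intro i _
    have := (hs (i + 1)).2
    linarith
  have hpanti : Antitone p := by
    apply antitone_nat_of_succ_le
    intro k
    rw [hps]
    have h1 := (hs (k + 1)).1
    nlinarith [hppos k]
  have hp1 : ∀ k, p k ≤ 1 := fun k => by
    have := hpanti (Nat.zero_le k)
    rwa [hp0] at this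
  have hdR : (1 : ℝ) ≤ d := by exact_mod_cast hd
  -- Q ≥ d
  have hQd : (d : ℝ) ≤ Q := by
    have h1 : (d : ℝ) * p d ≤ ∑ k ∈ range d, p k := by
      have : ∑ _k ∈ range d, p d ≤ ∑ k ∈ range d, p k := by
        apply Finset.sum_le_sum
        intro k hk
        exact hpanti (Finset.mem_range.mp hk).le
      simpa using this
    have h2 : (d : ℝ) * p d ≤ Q * p d := le_trans h1 hQ
    exact le_of_mul_le_mul_right h2 (hppos d)
  have hQpos : 0 < Q := by linarith
  set lam : ℝ := 1 - 1 / (2 * Q) with hlam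
  have hx : 1 / (2 * Q) ≤ 1 / 2 := by
    rw [div_le_div_iff₀ (by positivity) (by norm_num)]
    linarith
  have hxpos : 0 < 1 / (2 * Q) := by positivity
  have hlam0 : 0 < lam := by rw [hlam]; linarith
  have hlam1 : lam ≤ 1 := by rw [hlam]; linarith
  set w : ℕ → ℝ := fun k => p k * lam ^ (d - k) with hw
  have hw0 : ∀ k, 0 ≤ w k := fun k => by
    simp only [hw]
    exact mul_nonneg (hppos k).le (pow_nonneg hlam0.le _)
  have hw1 : ∀ k, w k ≤ 1 := fun k => by
    simp only [hw]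
    exact mul_le_one₀ (hp1 k) (pow_nonneg hlam0.le _) (pow_le_one₀ hlam0.le hlam1)
  have hwrec : ∀ k, k < d → lam * w (k + 1) = w k * (1 - s (k + 1)) := by
    intro k hk
    simp only [hw]
    have e : d - k = (d - (k + 1)) + 1 := by omega
    rw [e, pow_succ, hps]
    ring
  have hcond : (1 - lam) * ∑ k ∈ range d, w k ≤ lam * w d := by
    have h1 : ∑ k ∈ range d, w k ≤ lam * ∑ k ∈ range d, p k := by
      rw [Finset.mul_sum]
      apply Finset.sum_le_sum
      intro k hk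
      have hk' := Finset.mem_range.mp hk
      simp only [hw]
      have e : d - k = (d - (k + 1)) + 1 := by omega
      rw [e, pow_succ]
      have h2 : lam ^ (d - (k + 1)) ≤ 1 := pow_le_one₀ hlam0.le hlam1
      have h3 : 0 ≤ p k * lam := mul_nonneg (hppos k).le hlam0.le
      nlinarith
    have h2 : w d = p d := by simp [hw]
    rw [h2]
    have h3 : 1 - lam = 1 / (2 * Q) := by rw [hlam]; ring
    rw [h3]
    have h4 : ∑ k ∈ range d, w k ≤ lam * (Q * p d) :=
      le_trans h1 (mul_le_mul_of_nonneg_left hQ hlam0.le)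
    calc 1 / (2 * Q) * ∑ k ∈ range d, w k ≤ 1 / (2 * Q) * (lam * (Q * p d)) :=
          mul_le_mul_of_nonneg_left h4 hxpos.le
      _ = lam * p d / 2 := by field_simp
      _ ≤ lam * p d := by
          have := mul_pos hlam0 (hppos d)
          linarith
  -- the potential
  have hPsi : ∀ t, ∑ k ∈ range d, w k * S t k ≤ lam ^ t * ∑ k ∈ range d, w k * S 0 k := by
    intro t
    induction t with
    | zero => simp
    | succ t ih =>
      have h := pot_step d s lam w (S t) (S (t + 1)) hw0 hwrec hcond (hS t 0) (hSd t) (hrec t)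
      calc ∑ k ∈ range d, w k * S (t + 1) k ≤ lam * ∑ k ∈ range d, w k * S t k := h
        _ ≤ lam * (lam ^ t * ∑ k ∈ range d, w k * S 0 k) :=
            mul_le_mul_of_nonneg_left ih hlam0.le
        _ = _ := by rw [pow_succ]; ring
  have hB0 : 0 ≤ B := le_trans (hS 0 0) (hB 0)
  have hPsi0 : ∑ k ∈ range d, w k * S 0 k ≤ d * B := by
    have : ∑ k ∈ range d, w k * S 0 k ≤ ∑ _k ∈ range d, B := by
      apply Finset.sum_le_sum
      intro k _
      calc w k * S 0 k ≤ 1 * B := mul_le_mul (hw1 k) (hB k) (hS 0 k) (by norm_num)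
        _ = B := one_mul B
    simpa using this
  have hsingle : w 0 * S t 0 ≤ ∑ k ∈ range d, w k * S t k := by
    apply Finset.single_le_sum (f := fun k => w k * S t k)
    · intro k _
      exact mul_nonneg (hw0 k) (hS t k)
    · exact Finset.mem_range.mpr (by omega)
  have hw00 : (1 : ℝ) / 2 ≤ w 0 := by
    simp only [hw, hp0, one_mul, Nat.sub_zero]
    have hb := one_add_mul_le_pow (a := -(1 / (2 * Q))) (by linarith) d
    have e : 1 + -(1 / (2 * Q)) = lam := by rw [hlam]; ring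
    rw [e] at hb
    have h5 : (d : ℝ) * (1 / (2 * Q)) ≤ 1 / 2 := by
      rw [mul_one_div, div_le_div_iff₀ (by positivity) (by norm_num)]
      linarith
    linarith
  have hlamexp : lam ^ t ≤ Real.exp (-(t / (2 * Q))) := by
    have h1 : lam ≤ Real.exp (-(1 / (2 * Q))) := by
      have := Real.add_one_le_exp (-(1 / (2 * Q)))
      rw [hlam]; linarith
    have h2 : lam ^ t ≤ Real.exp (-(1 / (2 * Q))) ^ t := pow_le_pow_left₀ hlam0.le h1 t
    rw [← Real.exp_nat_mul] at h2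
    have e : (t : ℝ) * -(1 / (2 * Q)) = -(t / (2 * Q)) := by ring
    rwa [e] at h2
  have hfin : w 0 * S t 0 ≤ Real.exp (-(t / (2 * Q))) * (d * B) := by
    calc w 0 * S t 0 ≤ ∑ k ∈ range d, w k * S t k := hsingle
      _ ≤ lam ^ t * ∑ k ∈ range d, w k * S 0 k := hPsi t
      _ ≤ Real.exp (-(t / (2 * Q))) * (d * B) := by
          apply mul_le_mul hlamexp hPsi0 _ (Real.exp_pos _).le
          apply Finset.sum_nonneg
          intro k _
          exact mul_nonneg (hw0 k) (hS 0 k)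
  have h6 : (1 / 2 : ℝ) * S t 0 ≤ w 0 * S t 0 := mul_le_mul_of_nonneg_right hw00 (hS t 0)
  nlinarith

/-- The key Bernoulli type inequality. -/
theorem pot_key (c gam : ℝ) (hc0 : 0 ≤ c) (hc : c < gam) (hg1 : 1 < gam) (hg2 : gam ≤ 2)
    (k : ℕ) (hk : 3 / (gam - c) ≤ (k : ℝ) + 1) :
    ((k : ℝ) + 1) ^ gam ≤ (1 - c / ((k : ℝ) + 1)) * ((k : ℝ) + 2) ^ gam := by
  have hk0 : (0 : ℝ) ≤ k := Nat.cast_nonneg k
  have h1 : (0 : ℝ) < (k : ℝ) + 1 := by linarith
  have h2 : (0 : ℝ) < (k : ℝ) + 2 := by linarith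
  have hgc : 0 < gam - c := by linarith
  have hk' : 3 ≤ (gam - c) * ((k : ℝ) + 1) := by
    rw [div_le_iff₀ hgc] at hk
    linarith
  set x : ℝ := 1 / ((k : ℝ) + 2) with hx
  have hxpos : 0 < x := by positivity
  have hx1 : x ≤ 1 / 2 := by
    rw [hx, div_le_div_iff₀ h2 (by norm_num)]
    linarith
  have e1 : ((k : ℝ) + 1) / ((k : ℝ) + 2) = 1 - x := by
    rw [hx]; field_simp; ring
  have h3 : (1 - x) ^ gam ≤ (1 - x) * (1 - (gam - 1) * x) := by
    have e : gam = 1 + (gam - 1) := by ring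
    have hpos : 0 < 1 - x := by linarith
    calc (1 - x) ^ gam = (1 - x) ^ (1 + (gam - 1)) := by rw [← e]
      _ = (1 - x) ^ (1 : ℝ) * (1 - x) ^ (gam - 1) := Real.rpow_add hpos _ _
      _ = (1 - x) * (1 + -x) ^ (gam - 1) := by rw [Real.rpow_one]; ring_nf
      _ ≤ (1 - x) * (1 + (gam - 1) * -x) := by
          apply mul_le_mul_of_nonneg_left _ hpos.le
          exact rpow_one_add_le_one_add_mul_self (by linarith) (by linarith) (by linarith)
      _ = _ := by ring
  have h4 : (1 - x) * (1 - (gam - 1) * x) ≤ 1 - c / ((k : ℝ) + 1) := by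
    have e2 : c / ((k : ℝ) + 1) = c * x * (((k : ℝ) + 2) / ((k : ℝ) + 1)) := by
      rw [hx]; field_simp
    have e3 : ((k : ℝ) + 2) / ((k : ℝ) + 1) = 1 + 1 / ((k : ℝ) + 1) := by
      field_simp; ring
    set y : ℝ := 1 / ((k : ℝ) + 1) with hy
    have hypos : 0 < y := by positivity
    have hxy : x ≤ y := by
      rw [hx, hy]
      apply one_div_le_one_div_of_le h1
      linarith
    have hy3 : 3 * y ≤ gam - c := by
      rw [hy, mul_one_div, div_le_iff₀ h1]
      linarith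
    rw [e2, e3]
    -- goal : (1-x)(1-(gam-1)x) ≤ 1 - c x (1+y)
    have h5 : (gam - 1) * x + c * y ≤ gam - c := by
      have a1 : (gam - 1) * x ≤ 1 * y := by
        apply mul_le_mul (by linarith) hxy hxpos.le (by norm_num)
      have a2 : c * y ≤ 2 * y := by
        apply mul_le_mul_of_nonneg_right (by linarith) hypos.le
      linarith
    nlinarith [mul_le_mul_of_nonneg_left h5 hxpos.le]
  have h5 : ((k : ℝ) + 1) ^ gam = (1 - x) ^ gam * ((k : ℝ) + 2) ^ gam := by
    rw [← e1, Real.div_rpow h1.le h2.le]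
    have : ((k : ℝ) + 2) ^ gam ≠ 0 := (Real.rpow_pos_of_pos h2 _).ne'
    field_simp
  rw [h5]
  exact mul_le_mul_of_nonneg_right (le_trans h3 h4) (Real.rpow_pos_of_pos h2 _).le

/-- Polynomial bound of the inverse rate. -/
theorem pot_Q (c gam : ℝ) (hc0 : 0 ≤ c) (hc : c < gam) (hg1 : 1 < gam) (hg2 : gam ≤ 2)
    (j0 : ℕ) :
    ∃ C : ℝ, 0 < C ∧ ∀ (d : ℕ) (s : ℕ → ℝ), 1 ≤ d → (∀ j, 0 ≤ s j ∧ s j ≤ 1 / 2) →
      (∀ j : ℕ, j0 ≤ j → s j ≤ c / (j : ℝ)) →
      ∑ k ∈ range d, (∏ i ∈ range k, (1 - s (i + 1))) ≤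
        (C * (d : ℝ) ^ gam) * ∏ i ∈ range d, (1 - s (i + 1)) := by
  set k0 : ℕ := max j0 ⌈3 / (gam - c)⌉₊ with hk0
  have hsum : Summable (fun n : ℕ => 1 / ((n : ℝ) + 1) ^ gam) := by
    have h := (Real.summable_one_div_nat_rpow (p := gam)).mpr hg1
    have h' := (summable_nat_add_iff 1).mpr h
    refine h'.congr ?_
    intro n
    push_cast
    rfl
  set Z : ℝ := ∑' n : ℕ, 1 / ((n : ℝ) + 1) ^ gam with hZ
  have hZ0 : 0 ≤ Z := tsum_nonneg (fun n => by positivity)
  refine ⟨2 ^ k0 * 4 * (Z + 1), by positivity, ?_⟩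
  intro d s hd hs hsc
  set p : ℕ → ℝ := fun k => ∏ i ∈ range k, (1 - s (i + 1)) with hp
  have hps : ∀ k, p (k + 1) = p k * (1 - s (k + 1)) := fun k => by
    simp only [hp]; rw [Finset.prod_range_succ]
  have hppos : ∀ k, 0 < p k := fun k => by
    apply Finset.prod_pos
    intro i _
    have := (hs (i + 1)).2
    linarith
  set h : ℕ → ℝ := fun k => 2 ^ (min k k0) * ((k : ℝ) + 1) ^ gam with hh
  have hhpos : ∀ k, 0 < h k := fun k => by
    simp only [hh]
    have : (0 : ℝ) < (k : ℝ) + 1 := by positivity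
    have := Real.rpow_pos_of_pos this gam
    positivity
  have hstep : ∀ k, h k ≤ (1 - s (k + 1)) * h (k + 1) := by
    intro k
    have hk1 : (0 : ℝ) < (k : ℝ) + 1 := by positivity
    simp only [hh]
    push_cast
    have e12 : (k : ℝ) + 1 + 1 = (k : ℝ) + 2 := by ring
    rw [e12]
    have hP2 : 0 < ((k : ℝ) + 2) ^ gam := Real.rpow_pos_of_pos (by linarith) _
    rcases lt_or_ge k k0 with hk | hk
    · have m1 : min k k0 = k := min_eq_left hk.le
      have m2 : min (k + 1) k0 = k + 1 := min_eq_left hk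
      rw [m1, m2, pow_succ]
      have hmono : ((k : ℝ) + 1) ^ gam ≤ ((k : ℝ) + 2) ^ gam :=
        Real.rpow_le_rpow hk1.le (by linarith) (by linarith)
      have hs2 := (hs (k + 1)).2
      have h2k : (0 : ℝ) < 2 ^ k := by positivity
      have a1 : (2 : ℝ) ^ k * ((k : ℝ) + 1) ^ gam ≤ 2 ^ k * ((k : ℝ) + 2) ^ gam :=
        mul_le_mul_of_nonneg_left hmono h2k.le
      have a2 : 0 < (2 : ℝ) ^ k * ((k : ℝ) + 2) ^ gam := mul_pos h2k hP2
      nlinarith
    · have m1 : min k k0 = k0 := min_eq_right hk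
      have m2 : min (k + 1) k0 = k0 := min_eq_right (by omega)
      rw [m1, m2]
      have hkj : j0 ≤ k + 1 := by
        have : j0 ≤ k0 := le_max_left _ _
        omega
      have hkc : 3 / (gam - c) ≤ (k : ℝ) + 1 := by
        have a1 : ⌈3 / (gam - c)⌉₊ ≤ k := le_trans (le_max_right _ _) hk
        have a2 : 3 / (gam - c) ≤ (⌈3 / (gam - c)⌉₊ : ℝ) := Nat.le_ceil _
        have a3 : (⌈3 / (gam - c)⌉₊ : ℝ) ≤ (k : ℝ) := by exact_mod_cast a1
        linarith
      have key := pot_key c gam hc0 hc hg1 hg2 k hkc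
      have hs3 := hsc (k + 1) hkj
      push_cast at hs3
      have a1 : (1 - c / ((k : ℝ) + 1)) * ((k : ℝ) + 2) ^ gam ≤
          (1 - s (k + 1)) * ((k : ℝ) + 2) ^ gam :=
        mul_le_mul_of_nonneg_right (by linarith) hP2.le
      have a2 : ((k : ℝ) + 1) ^ gam ≤ (1 - s (k + 1)) * ((k : ℝ) + 2) ^ gam := le_trans key a1
      have h2k : (0 : ℝ) < 2 ^ k0 := by positivity
      calc (2 : ℝ) ^ k0 * ((k : ℝ) + 1) ^ gam ≤ 2 ^ k0 * ((1 - s (k + 1)) * ((k : ℝ) + 2) ^ gam) :=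
            mul_le_mul_of_nonneg_left a2 h2k.le
        _ = _ := by ring
  have hmono : Monotone (fun k => p k * h k) := by
    apply monotone_nat_of_le_succ
    intro k
    show p k * h k ≤ p (k + 1) * h (k + 1)
    rw [hps]
    calc p k * h k ≤ p k * ((1 - s (k + 1)) * h (k + 1)) :=
          mul_le_mul_of_nonneg_left (hstep k) (hppos k).le
      _ = _ := by ring
  have hdR : (1 : ℝ) ≤ d := by exact_mod_cast hd
  have hterm : ∀ k, k < d → p k ≤ (p d * h d) * (1 / ((k : ℝ) + 1) ^ gam) := by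
    intro k hk
    have h1 : p k * h k ≤ p d * h d := hmono hk.le
    have hk1 : (0 : ℝ) < (k : ℝ) + 1 := by positivity
    have hP : 0 < ((k : ℝ) + 1) ^ gam := Real.rpow_pos_of_pos hk1 _
    have h2 : ((k : ℝ) + 1) ^ gam ≤ h k := by
      simp only [hh]
      have : (1 : ℝ) ≤ 2 ^ (min k k0) := one_le_pow₀ (by norm_num)
      nlinarith
    have h3 : p k * ((k : ℝ) + 1) ^ gam ≤ p d * h d :=
      le_trans (mul_le_mul_of_nonneg_left h2 (hppos k).le) h1
    rw [mul_one_div, le_div_iff₀ hP]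
    exact h3
  have hS1 : ∑ k ∈ range d, p k ≤ (p d * h d) * Z := by
    calc ∑ k ∈ range d, p k ≤ ∑ k ∈ range d, (p d * h d) * (1 / ((k : ℝ) + 1) ^ gam) :=
          Finset.sum_le_sum (fun k hk => hterm k (Finset.mem_range.mp hk))
      _ = (p d * h d) * ∑ k ∈ range d, (1 / ((k : ℝ) + 1) ^ gam) := by rw [Finset.mul_sum]
      _ ≤ (p d * h d) * Z := by
          apply mul_le_mul_of_nonneg_left _ (mul_pos (hppos d) (hhpos d)).le
          exact hsum.sum_le_tsum _ (fun n _ => by positivity)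
  have hhd : h d ≤ 2 ^ k0 * 4 * (d : ℝ) ^ gam := by
    simp only [hh]
    have a1 : (2 : ℝ) ^ (min d k0) ≤ 2 ^ k0 :=
      pow_le_pow_right₀ (by norm_num) (min_le_right _ _)
    have a2 : ((d : ℝ) + 1) ^ gam ≤ 4 * (d : ℝ) ^ gam := by
      calc ((d : ℝ) + 1) ^ gam ≤ (2 * (d : ℝ)) ^ gam :=
            Real.rpow_le_rpow (by linarith) (by linarith) (by linarith)
        _ = (2 : ℝ) ^ gam * (d : ℝ) ^ gam := Real.mul_rpow (by norm_num) (by linarith)
        _ ≤ 4 * (d : ℝ) ^ gam := by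
            apply mul_le_mul_of_nonneg_right _ (Real.rpow_nonneg (by linarith) _)
            calc (2 : ℝ) ^ gam ≤ (2 : ℝ) ^ (2 : ℝ) :=
                  Real.rpow_le_rpow_of_exponent_le (by norm_num) hg2
              _ = 4 := by
                  rw [show (2 : ℝ) = ((2 : ℕ) : ℝ) by norm_num, Real.rpow_natCast]; norm_num
    calc (2 : ℝ) ^ (min d k0) * ((d : ℝ) + 1) ^ gam ≤ 2 ^ k0 * (4 * (d : ℝ) ^ gam) :=
          mul_le_mul a1 a2 (Real.rpow_nonneg (by linarith) _) (by positivity)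
      _ = _ := by ring
  have hdg : 0 ≤ (d : ℝ) ^ gam := Real.rpow_nonneg (by linarith) _
  calc ∑ k ∈ range d, p k ≤ (p d * h d) * Z := hS1
    _ ≤ (p d * (2 ^ k0 * 4 * (d : ℝ) ^ gam)) * (Z + 1) := by
        apply mul_le_mul _ (by linarith) hZ0
          (mul_nonneg (hppos d).le (by positivity))
        exact mul_le_mul_of_nonneg_left hhd (hppos d).le
    _ = _ := by ring

/-- **The scalar end of the entropy recursion.** -/
theorem pot (c gam : ℝ) (hc0 : 0 ≤ c) (hc : c < gam) (hg1 : 1 < gam) (hg2 : gam ≤ 2)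
    (j0 : ℕ) :
    ∃ C : ℝ, 0 < C ∧ ∀ (d : ℕ) (s : ℕ → ℝ) (S : ℕ → ℕ → ℝ), 1 ≤ d →
      (∀ j, 0 ≤ s j ∧ s j ≤ 1 / 2) → (∀ j : ℕ, j0 ≤ j → s j ≤ c / (j : ℝ)) →
      (∀ t k, 0 ≤ S t k) → (∀ t, S t d = 0) →
      (∀ t k, k < d → S (t + 1) k ≤ (1 - s (k + 1)) * S t (k + 1) + s (k + 1) * S t 0) →
      (∀ k, S 0 k ≤ 4 ^ d) →
      ∀ t : ℕ, C * (d : ℝ) ^ (gam + 1) ≤ t → S t 0 ≤ 1 / 8 := by
  obtain ⟨C, hC, hQ⟩ := pot_Q c gam hc0 hc hg1 hg2 j0
  refine ⟨14 * C, by positivity, ?_⟩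
  intro d s S hd hs hsc hS hSd hrec hB t ht
  have hdR : (1 : ℝ) ≤ d := by exact_mod_cast hd
  have hd0 : (0 : ℝ) < d := by linarith
  have hdg : 0 < (d : ℝ) ^ gam := Real.rpow_pos_of_pos hd0 _
  have hdec := pot_decay d hd s S (4 ^ d) (C * (d : ℝ) ^ gam) hs hS hSd hrec hB (hQ d s hd hs hsc) t
  have hQpos : 0 < C * (d : ℝ) ^ gam := mul_pos hC hdg
  have h7 : 7 * (d : ℝ) ≤ t / (2 * (C * (d : ℝ) ^ gam)) := by
    rw [le_div_iff₀ (by positivity)]
    have e : (d : ℝ) ^ (gam + 1) = (d : ℝ) ^ gam * d := by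
      rw [Real.rpow_add hd0, Real.rpow_one]
    rw [e] at ht
    linarith
  have hexp : Real.exp (-(t / (2 * (C * (d : ℝ) ^ gam)))) ≤ (1 / 128) ^ d := by
    have h1 : Real.exp (-(t / (2 * (C * (d : ℝ) ^ gam)))) ≤ Real.exp ((d : ℝ) * (-7)) := by
      apply Real.exp_le_exp.mpr
      linarith
    rw [Real.exp_nat_mul] at h1
    have h2 : Real.exp (-7) ≤ 1 / 128 := by
      have a1 : (2 : ℝ) ≤ Real.exp 1 := by
        have := Real.add_one_le_exp (1 : ℝ)
        linarith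
      have a2 : (2 : ℝ) ^ 7 ≤ Real.exp 1 ^ 7 := pow_le_pow_left₀ (by norm_num) a1 7
      have a3 : Real.exp 1 ^ 7 = Real.exp 7 := by
        rw [← Real.exp_nat_mul]; norm_num
      rw [a3] at a2
      rw [Real.exp_neg, one_div]
      apply inv_anti₀ (by norm_num)
      linarith
    exact le_trans h1 (pow_le_pow_left₀ (Real.exp_pos _).le h2 d)
  have h16 : 16 * (d : ℝ) ≤ 32 ^ d := by
    have a1 : (d : ℝ) ≤ 2 ^ d := by
      have := (Nat.lt_two_pow_self (n := d)).le
      exact_mod_cast this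
    have a2 : (16 : ℝ) ≤ 16 ^ d := by
      calc (16 : ℝ) = 16 ^ 1 := by norm_num
        _ ≤ 16 ^ d := pow_le_pow_right₀ (by norm_num) hd
    calc 16 * (d : ℝ) ≤ 16 ^ d * 2 ^ d := mul_le_mul a2 a1 hd0.le (by positivity)
      _ = 32 ^ d := by rw [← mul_pow]; norm_num
  calc S t 0 ≤ 2 * d * 4 ^ d * Real.exp (-(t / (2 * (C * (d : ℝ) ^ gam)))) := hdec
    _ ≤ 2 * d * 4 ^ d * (1 / 128) ^ d :=
        mul_le_mul_of_nonneg_left hexp (by positivity)
    _ = 2 * d * (1 / 32) ^ d := by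
        rw [mul_assoc, ← mul_pow]; norm_num
    _ ≤ 1 / 8 := by
        rw [one_div, inv_pow]
        rw [← div_eq_mul_inv, div_le_iff₀ (by positivity)]
        linarith

end Vale.Agent.P162
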