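import Vale.Agent.P162.Defs

namespace Vale.Agent.P162

open Finset

variable {G : Type*} [Group G] [Fintype G]

lemma sum_shift (ν : G → ℝ) (h : G) : ∑ g : G, ν (h⁻¹ * g) = ∑ g : G, ν g :=
  Equiv.sum_comp (Equiv.mulLeft h⁻¹) ν

lemma sum_shift' (ν : G → ℝ) (g : G) : ∑ h : G, ν (h⁻¹ * g) = ∑ h : G, ν h :=
  Equiv.sum_comp ((Equiv.inv G).trans (Equiv.mulRight g)) ν

lemma sum_conv (μ ν : G → ℝ) : ∑ g : G, conv μ ν g = (∑ g : G, μ g) * (∑ g : G, ν g) := by
  unfold conv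
  rw [Finset.sum_comm, Finset.sum_mul]
  apply Finset.sum_congr rfl
  intro h _
  rw [← Finset.mul_sum, sum_shift]

lemma conv_nonneg (μ ν : G → ℝ) (hμ : ∀ g, 0 ≤ μ g) (hν : ∀ g, 0 ≤ ν g) (g : G) :
    0 ≤ conv μ ν g :=
  Finset.sum_nonneg (fun h _ => mul_nonneg (hμ h) (hν _))

lemma conv_ne_zero (μ ν : G → ℝ) (g : G) (hg : conv μ ν g ≠ 0) :
    ∃ h s : G, μ h ≠ 0 ∧ ν s ≠ 0 ∧ g = h * s := by
  unfold conv at hg
  obtain ⟨h, _, hh⟩ := Finset.exists_ne_zero_of_sum_ne_zero hg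
  refine ⟨h, h⁻¹ * g, left_ne_zero_of_mul hh, right_ne_zero_of_mul hh, by group⟩

/-- convolution with a probability law does not increase the distance to uniform -/
lemma tvUnif_conv_le (μ ν : G → ℝ) (hν : ∀ g, 0 ≤ ν g) (hν1 : ∑ g : G, ν g = 1) :
    tvUnif (conv μ ν) ≤ tvUnif μ := by
  unfold tvUnif
  apply mul_le_mul_of_nonneg_left _ (by norm_num)
  set u : ℝ := 1 / (Fintype.card G : ℝ) with hu
  have h1 : ∀ g : G, conv μ ν g - u = ∑ h : G, (μ h - u) * ν (h⁻¹ * g) := by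
    intro g
    unfold conv
    simp_rw [sub_mul]
    rw [Finset.sum_sub_distrib, ← Finset.mul_sum, sum_shift', hν1, mul_one]
  calc ∑ g : G, |conv μ ν g - u| = ∑ g : G, |∑ h : G, (μ h - u) * ν (h⁻¹ * g)| := by
        apply Finset.sum_congr rfl; intro g _; rw [h1]
    _ ≤ ∑ g : G, ∑ h : G, |μ h - u| * ν (h⁻¹ * g) := by
        apply Finset.sum_le_sum
        intro g _
        refine le_trans (Finset.abs_sum_le_sum_abs _ _) ?_
        apply Finset.sum_le_sum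
        intro h _
        rw [abs_mul, abs_of_nonneg (hν _)]
    _ = ∑ h : G, |μ h - u| := by
        rw [Finset.sum_comm]
        apply Finset.sum_congr rfl
        intro h _
        rw [← Finset.mul_sum, sum_shift, hν1, mul_one]

/-- lower bound for the distance to uniform of a law supported in `E` -/
lemma tvUnif_ge_of_support [DecidableEq G] (μ : G → ℝ) (hμ1 : ∑ g : G, μ g = 1) (E : Finset G)
    (hE : ∀ g, g ∉ E → μ g = 0) :
    1 - (E.card : ℝ) / (Fintype.card G : ℝ) ≤ tvUnif μ := by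
  unfold tvUnif
  set u : ℝ := 1 / (Fintype.card G : ℝ) with hu
  have hcard : (0 : ℝ) < (Fintype.card G : ℝ) := by
    exact_mod_cast Fintype.card_pos
  have hupos : 0 < u := by positivity
  have hsplit : ∑ g : G, |μ g - u| = ∑ g ∈ E, |μ g - u| + ∑ g ∈ Eᶜ, |μ g - u| := by
    rw [← Finset.sum_add_sum_compl E]
  have h1 : ∑ g ∈ E, (μ g - u) ≤ ∑ g ∈ E, |μ g - u| :=
    Finset.sum_le_sum (fun g _ => le_abs_self _)
  have h2 : ∑ g ∈ Eᶜ, |μ g - u| = (Eᶜ.card : ℝ) * u := by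
    rw [Finset.sum_congr rfl (fun g hg => by
      rw [hE g (Finset.mem_compl.mp hg), zero_sub, abs_neg, abs_of_pos hupos])]
    rw [Finset.sum_const, nsmul_eq_mul]
  have h3 : ∑ g ∈ E, μ g = 1 := by
    rw [← hμ1, ← Finset.sum_add_sum_compl E]
    have : ∑ g ∈ Eᶜ, μ g = 0 :=
      Finset.sum_eq_zero (fun g hg => hE g (Finset.mem_compl.mp hg))
    rw [this, add_zero]
  have h4 : ∑ g ∈ E, (μ g - u) = 1 - (E.card : ℝ) * u := by
    rw [Finset.sum_sub_distrib, h3, Finset.sum_const, nsmul_eq_mul]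
  have h5 : (Eᶜ.card : ℝ) = (Fintype.card G : ℝ) - (E.card : ℝ) := by
    rw [Finset.card_compl, Nat.cast_sub (Finset.card_le_univ E)]
  have h6 : (Fintype.card G : ℝ) * u = 1 := by
    rw [hu]; field_simp
  have h7 : (E.card : ℝ) / (Fintype.card G : ℝ) = (E.card : ℝ) * u := by
    rw [hu]; ring
  rw [hsplit, h2, h5, h7]
  nlinarith

end Vale.Agent.P162
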