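import Vale.Agent.P162.Thorp

namespace Vale.Agent.P162

open Finset

/-- the set of even positions whose card ends in the top half -/
def evenTop (m : ℕ) (g : Equiv.Perm (Fin (2 * m))) : Finset (Fin (2 * m)) :=
  Finset.univ.filter (fun x => x.val % 2 = 0 ∧ (g x).val < m)

lemma mem_evenTop (m : ℕ) (g : Equiv.Perm (Fin (2 * m))) (x : Fin (2 * m)) :
    x ∈ evenTop m g ↔ x.val % 2 = 0 ∧ (g x).val < m := by
  unfold evenTop
  rw [Finset.mem_filter]
  exact ⟨fun h => h.2, fun h => ⟨Finset.mem_univ _, h⟩⟩

/-- the even positions of the top half -/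
def topEven (m : ℕ) : Finset (Fin (2 * m)) :=
  Finset.univ.filter (fun w => w.val < m ∧ w.val % 2 = 0)

lemma mem_topEven (m : ℕ) (w : Fin (2 * m)) :
    w ∈ topEven m ↔ w.val < m ∧ w.val % 2 = 0 := by
  unfold topEven
  rw [Finset.mem_filter]
  exact ⟨fun h => h.2, fun h => ⟨Finset.mem_univ _, h⟩⟩

lemma card_topEven (m : ℕ) : (topEven (2 * m)).card = m := by
  have h : (topEven (2 * m)).card = (Finset.range m).card := by
    apply Finset.card_bij (fun w _ => w.val / 2)
    · intro w hw
      rw [mem_topEven] at hw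
      rw [Finset.mem_range]
      omega
    · intro a ha b hb hab
      rw [mem_topEven] at ha hb
      apply Fin.ext
      omega
    · intro i hi
      rw [Finset.mem_range] at hi
      refine ⟨⟨2 * i, by omega⟩, ?_, ?_⟩
      · rw [mem_topEven]
        constructor
        · change 2 * i < 2 * m
          omega
        · change 2 * i % 2 = 0
          omega
      · change 2 * i / 2 = i
        omega
  rw [h, Finset.card_range]

/-- conservation law after `2 k` shuffles of `2 ^ (k+1)` cards -/
lemma card_evenTop_of_isProd (k : ℕ) (hk : 1 ≤ k) (g : Equiv.Perm (Fin (2 * 2 ^ k)))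
    (hg : IsProd (2 ^ k) (k + k) g) : (evenTop (2 ^ k) g).card = 2 ^ (k - 1) := by
  obtain ⟨g1, g2, h1, h2, rfl⟩ := isProd_add (2 ^ k) k k g hg
  have inv1 := isProd_invariant k k (by omega) g1 h1
  have inv2 := isProd_invariant k k (by omega) g2 h2
  have hsub : k + 1 - k = 1 := by omega
  rw [hsub, pow_one] at inv1 inv2
  have hpos : 0 < 2 ^ k := by positivity
  have hcard : (evenTop (2 ^ k) (g1 * g2)).card = (topEven (2 ^ k)).card := by
    apply Finset.card_bij (fun x _ => g2 x)
    · intro x hx
      rw [mem_evenTop, Equiv.Perm.mul_apply] at hx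
      rw [mem_topEven]
      have e1 := inv1 (g2 x)
      have e2 := inv2 x
      constructor
      · rw [hx.1] at e2
        exact (Nat.div_eq_zero_iff_lt hpos).mp e2
      · rw [← e1]
        exact (Nat.div_eq_zero_iff_lt hpos).mpr hx.2
    · intro a _ b _ hab
      exact g2.injective hab
    · intro w hw
      rw [mem_topEven] at hw
      refine ⟨g2.symm w, ?_, by simp⟩
      rw [mem_evenTop, Equiv.Perm.mul_apply]
      have e1 := inv1 w
      have e2 := inv2 (g2.symm w)
      rw [Equiv.apply_symm_apply] at e2 ⊢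
      constructor
      · rw [← e2]
        exact (Nat.div_eq_zero_iff_lt hpos).mpr hw.1
      · rw [hw.2] at e1
        exact (Nat.div_eq_zero_iff_lt hpos).mp e1
  rw [hcard]
  obtain ⟨i, rfl⟩ : ∃ i, k = i + 1 := ⟨k - 1, by omega⟩
  have h3 : 2 ^ (i + 1) = 2 * 2 ^ i := by rw [pow_succ]; ring
  simp only [Nat.add_sub_cancel]
  rw [h3]
  exact card_topEven (2 ^ i)

end Vale.Agent.P162
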