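import Vale.Agent.P162.Count

namespace Vale.Agent.P162

open Finset

theorem tv_lower (k : ℕ) (hk : 1 ≤ k) (t : ℕ) (ht : t ≤ 2 * k) :
    1 / 4 < tvUnif (thorpPow (2 ^ k) t) := by
  classical
  have hm : 2 ≤ 2 ^ k := by
    calc 2 = 2 ^ 1 := by norm_num
      _ ≤ 2 ^ k := Nat.pow_le_pow_right (by norm_num) hk
  have hmono := tvUnif_thorpPow_antitone (2 ^ k) (s := t) (t := k + k) (by omega)
  set E := Finset.univ.filter
    (fun g : Equiv.Perm (Fin (2 * 2 ^ k)) => (evenTop (2 ^ k) g).card = 2 ^ (k - 1)) with hE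
  have hsupp : ∀ g, g ∉ E → thorpPow (2 ^ k) (k + k) g = 0 := by
    intro g hg
    by_contra hne
    apply hg
    rw [hE, Finset.mem_filter]
    exact ⟨Finset.mem_univ _, card_evenTop_of_isProd k hk g
      (isProd_of_thorpPow_ne_zero _ _ g hne)⟩
  have h1 := tvUnif_ge_of_support (thorpPow (2 ^ k) (k + k)) (sum_thorpPow _ _) E hsupp
  have h2 : 4 * E.card < 3 * Fintype.card (Equiv.Perm (Fin (2 * 2 ^ k))) :=
    four_mul_card_level_lt (2 ^ k) hm (2 ^ (k - 1))
  have hcard : (0 : ℝ) < (Fintype.card (Equiv.Perm (Fin (2 * 2 ^ k))) : ℝ) := by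
    exact_mod_cast Fintype.card_pos
  have h3 : (E.card : ℝ) / (Fintype.card (Equiv.Perm (Fin (2 * 2 ^ k))) : ℝ) < 3 / 4 := by
    rw [div_lt_iff₀ hcard]
    have : (4 * E.card : ℝ) < 3 * (Fintype.card (Equiv.Perm (Fin (2 * 2 ^ k))) : ℝ) := by
      exact_mod_cast h2
    linarith
  linarith

end Vale.Agent.P162

namespace Vale.Agent.P162

theorem tv_lower_zero : 1 / 4 < tvUnif (thorpPow (2 ^ 0) 0) := by
  classical
  have h1 := tvUnif_ge_of_support (thorpPow (2 ^ 0) 0) (sum_thorpPow _ _) {1} (by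
    intro g hg
    rw [Finset.mem_singleton] at hg
    unfold thorpPow
    exact if_neg hg)
  have hcard : Fintype.card (Equiv.Perm (Fin (2 * 2 ^ 0))) = 2 := by
    rw [Fintype.card_perm, Fintype.card_fin]
    rfl
  rw [hcard, Finset.card_singleton] at h1
  norm_num at h1
  linarith

theorem tv_lower_all (k t : ℕ) (ht : t ≤ 2 * k) : 1 / 4 < tvUnif (thorpPow (2 ^ k) t) := by
  rcases Nat.eq_zero_or_pos k with rfl | hk
  · have : t = 0 := by omega
    rw [this]
    exact tv_lower_zero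
  · exact tv_lower k hk t ht

end Vale.Agent.P162
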